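import Vale.Agent.Lib.P340.Finite

open Vale.Agent.Lib.P340

universe u

/-- If every weakly normalizing pure type system with a finite set of sorts `Fin k` is strongly
normalizing, then every weakly normalizing pure type system (arbitrary set of sorts, arbitrary
relations) is strongly normalizing. -/
theorem Vale.Agent.Results.P340.FiniteReduction.result
    (hfin : ∀ (k : ℕ) (Ax : Fin k → Fin k → Prop) (Ru : Fin k → Fin k → Fin k → Prop),
      WeaklyNormalizing Ax Ru → StronglyNormalizing Ax Ru)
    (S : Type u) (Ax : S → S → Prop) (Ru : S → S → S → Prop)
    (hWN : WeaklyNormalizing Ax Ru) : StronglyNormalizing Ax Ru :=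
  finite_reduction hfin S Ax Ru hWN
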